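import Vale.Agent.P256.H387.Calc

/-! Step A: the pencil at the base point `z` itself, in a gauge in which the compression to the
kernel is affine.  (A-i): if the limit kernel vector is not an eigenvector of `A₂` then the slack
kernel is a sum of squares.  (A-ii): if it is a common eigenvector then `l_y(z) ≥ (1-ε) l₀(y)`. -/

set_option linter.all false

namespace Vale.Agent.P256.H718

open Filter Topology Matrix Vale.Agent.P256 Vale.Agent.P256.H326 Vale.Agent.P256.H387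

variable {L X : Type*} {F : Filter L} {G : Filter X}

section Lin

variable {ε ν : Type*} [Fintype ε] [Fintype ν] [DecidableEq ε] [DecidableEq ν]

/-- the block pencil `t + diag(0, D) + h (A, Cᵀ; C, N)` -/
def pen (t h : ℝ) (D : Matrix ν ν ℝ) (A : Matrix ε ε ℝ) (C : Matrix ν ε ℝ)
    (N : Matrix ν ν ℝ) : Matrix (ε ⊕ ν) (ε ⊕ ν) ℝ :=
  t • (1 : Matrix (ε ⊕ ν) (ε ⊕ ν) ℝ) + Matrix.fromBlocks 0 0 0 D + h • Matrix.fromBlocks A Cᵀ C N

theorem pen_mulVec_inl (t h : ℝ) (D : Matrix ν ν ℝ) (A : Matrix ε ε ℝ) (C : Matrix ν ε ℝ)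
    (N : Matrix ν ν ℝ) (ξ : ε ⊕ ν → ℝ) (i : ε) :
    (pen t h D A C N *ᵥ ξ) (Sum.inl i) = t * ξ (Sum.inl i) +
      h * ((A *ᵥ (fun i => ξ (Sum.inl i))) i + (Cᵀ *ᵥ (fun j => ξ (Sum.inr j))) i) := by
  unfold pen
  rw [Matrix.add_mulVec, Matrix.add_mulVec, Matrix.smul_mulVec, Matrix.smul_mulVec,
    Matrix.one_mulVec]
  simp only [Pi.add_apply, Pi.smul_apply, smul_eq_mul]
  simp only [Matrix.mulVec, dotProduct, Fintype.sum_sum_type, Matrix.fromBlocks_apply₁₁,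
    Matrix.fromBlocks_apply₁₂, Matrix.zero_apply, zero_mul, Finset.sum_const_zero, add_zero]

theorem pen_mulVec_inr (t h : ℝ) (D : Matrix ν ν ℝ) (A : Matrix ε ε ℝ) (C : Matrix ν ε ℝ)
    (N : Matrix ν ν ℝ) (ξ : ε ⊕ ν → ℝ) (j : ν) :
    (pen t h D A C N *ᵥ ξ) (Sum.inr j) = t * ξ (Sum.inr j) + (D *ᵥ (fun j => ξ (Sum.inr j))) j +
      h * ((C *ᵥ (fun i => ξ (Sum.inl i))) j + (N *ᵥ (fun j => ξ (Sum.inr j))) j) := by
  unfold pen
  rw [Matrix.add_mulVec, Matrix.add_mulVec, Matrix.smul_mulVec, Matrix.smul_mulVec,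
    Matrix.one_mulVec]
  simp only [Pi.add_apply, Pi.smul_apply, smul_eq_mul]
  simp only [Matrix.mulVec, dotProduct, Fintype.sum_sum_type, Matrix.fromBlocks_apply₂₁,
    Matrix.fromBlocks_apply₂₂, Matrix.zero_apply, zero_mul, Finset.sum_const_zero, zero_add]

/-- pairing with a vector supported on the first block -/
theorem pen_test_inl (t h : ℝ) (D : Matrix ν ν ℝ) (A : Matrix ε ε ℝ) (C : Matrix ν ε ℝ)
    (N : Matrix ν ν ℝ) (v : ε → ℝ) (ξ : ε ⊕ ν → ℝ) :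
    (Sum.elim v (fun _ => 0)) ⬝ᵥ (pen t h D A C N *ᵥ ξ) =
      t * (v ⬝ᵥ (fun i => ξ (Sum.inl i))) +
      h * (v ⬝ᵥ (A *ᵥ (fun i => ξ (Sum.inl i))) + v ⬝ᵥ (Cᵀ *ᵥ (fun j => ξ (Sum.inr j)))) := by
  simp only [dotProduct, Fintype.sum_sum_type, Sum.elim_inl, Sum.elim_inr, zero_mul,
    Finset.sum_const_zero, add_zero, pen_mulVec_inl]
  simp only [Finset.mul_sum, mul_add, Finset.sum_add_distrib]
  congr 1
  · exact Finset.sum_congr rfl fun i _ => by ring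
  · congr 1
    · exact Finset.sum_congr rfl fun i _ => by ring
    · exact Finset.sum_congr rfl fun i _ => by ring

/-- crude bound of a form -/
theorem form_bound (A : Matrix ε ε ℝ) : ∃ c : ℝ, 0 ≤ c ∧ ∀ w : ε → ℝ,
    |w ⬝ᵥ (A *ᵥ w)| ≤ c * (w ⬝ᵥ w) := by
  refine ⟨∑ i, ∑ j, |A i j|, Finset.sum_nonneg fun i _ => Finset.sum_nonneg fun j _ =>
    abs_nonneg _, fun w => ?_⟩
  rw [dot_mulVec_eq]
  refine (Finset.abs_sum_le_sum_abs _ _).trans ?_
  rw [Finset.sum_mul]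
  refine Finset.sum_le_sum fun i _ => (Finset.abs_sum_le_sum_abs _ _).trans ?_
  rw [Finset.sum_mul]
  refine Finset.sum_le_sum fun j _ => ?_
  rw [mul_assoc, abs_mul]
  refine mul_le_mul_of_nonneg_left ?_ (abs_nonneg _)
  have h1 : ∀ k, w k * w k ≤ w ⬝ᵥ w := fun k =>
    Finset.single_le_sum (f := fun k => w k * w k) (fun _ _ => mul_self_nonneg _)
      (Finset.mem_univ k)
  have h2 := h1 i
  have h3 := h1 j
  rw [abs_le]
  constructor <;> nlinarith [sq_nonneg (w i + w j), sq_nonneg (w i - w j)]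

end Lin

section SosA

variable {ε ν : Type*} [Fintype ε] [Fintype ν] [DecidableEq ε] [DecidableEq ν]

/-- `(Σ a_k(l) d_k)² ≤ δ e²` for small one-sided coefficients and `d_k² ≤ K e²` -/
theorem sle_small_comb {κ : Type*} [Fintype κ] {a : κ → L → ℝ} {d : κ → L → X → ℝ}
    {e : L → X → ℝ} (he : FR e) (hd : ∀ k, FR (d k))
    (ha : ∀ k, Tendsto (a k) F (𝓝 0)) {K : ℝ} (hK : 0 ≤ K)
    (hdK : ∀ k, SLe F G (fun l x => d k l x ^ 2) (fun l x => K * e l x ^ 2)) {δ : ℝ}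
    (hδ : 0 < δ) :
    SLe F G (fun l x => (∑ k, a k l * d k l x) ^ 2) (fun l x => δ * e l x ^ 2) := by
  classical
  set n : ℝ := (Fintype.card κ : ℝ) with hn
  have hn0 : 0 ≤ n := by positivity
  -- Cauchy-Schwarz
  have h1 : SLe F G (fun l x => (∑ k, a k l * d k l x) ^ 2)
      (fun l x => n * ∑ k, (a k l * d k l x) ^ 2) := by
    have hfr : ∀ k, FR (fun l x => a k l * d k l x) := fun k => (FR.left (a k)).mul (hd k)
    have h2 : SosF F G (fun l x => ∑ k, ∑ k', 1 / 2 * (a k l * d k l x - a k' l * d k' l x) ^ 2) :=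
      SosF.sum _ fun k _ => SosF.sum _ fun k' _ => SosF.smul (by norm_num)
        (SosF.sq ((hfr k).sub (hfr k')))
    refine SosF.congr' h2 fun l x => ?_
    have h3 : ∀ b : κ → ℝ, ∑ k, ∑ k', 1 / 2 * (b k - b k') ^ 2 =
        n * ∑ k, b k ^ 2 - (∑ k, b k) ^ 2 := by
      intro b
      have e1 : ∀ k k', 1 / 2 * (b k - b k') ^ 2 = 1 / 2 * b k ^ 2 + 1 / 2 * b k' ^ 2 -
        b k * b k' := fun k k' => by ring
      simp only [e1, Finset.sum_sub_distrib, Finset.sum_add_distrib, Finset.sum_const,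
        Finset.card_univ, nsmul_eq_mul, ← Finset.mul_sum, ← Finset.sum_mul, ← hn]
      ring
    exact (h3 fun k => a k l * d k l x).symm
  refine h1.trans ?_
  have h4 : SLe F G (fun l x => n * ∑ k, (a k l * d k l x) ^ 2)
      (fun l x => n * ∑ k, a k l ^ 2 * (K * e l x ^ 2)) := by
    have h5 : SosF F G (fun l x => n * ∑ k, a k l ^ 2 * (K * e l x ^ 2 - d k l x ^ 2)) :=
      SosF.smul hn0 (SosF.sum _ fun k _ =>
        (SosF.left (Eventually.of_forall fun l => sq_nonneg (a k l))).mul (hdK k))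
    refine SosF.congr' h5 fun l x => ?_
    rw [← mul_sub, ← Finset.sum_sub_distrib]
    congr 1
    exact Finset.sum_congr rfl fun k _ => by ring
  refine h4.trans ?_
  have h6 : Tendsto (fun l => n * K * ∑ k, a k l ^ 2) F (𝓝 0) := by
    have : Tendsto (fun l => n * K * ∑ k, a k l ^ 2) F (𝓝 (n * K * ∑ k : κ, (0 : ℝ) ^ 2)) :=
      (tendsto_finset_sum _ fun k _ => (ha k).pow 2).const_mul _
    simpa using this
  have h7 : ∀ᶠ l in F, 0 ≤ δ - n * K * ∑ k, a k l ^ 2 := by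
    filter_upwards [h6.eventually_lt_const hδ] with l hl
    linarith
  refine SosF.congr' ((SosF.left h7).mul (SosF.sq he)) fun l x => ?_
  have e1 : ∑ k, a k l ^ 2 * (K * e l x ^ 2) = (∑ k, a k l ^ 2) * (K * e l x ^ 2) := by
    rw [Finset.sum_mul]
  show δ * e l x ^ 2 - n * ∑ k, a k l ^ 2 * (K * e l x ^ 2) = _
  rw [e1]
  ring

/-- `Σ a_k(l) W_k ≤ δ e²` for small one-sided coefficients and `±W_k ≤ K e²` -/
theorem sle_small_lin {κ : Type*} [Fintype κ] {a : κ → L → ℝ} {W : κ → L → X → ℝ}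
    {e : L → X → ℝ} (he : FR e) (ha : ∀ k, Tendsto (a k) F (𝓝 0)) {K : ℝ} (hK : 0 ≤ K)
    (h1 : ∀ k, SLe F G (fun l x => W k l x) (fun l x => K * e l x ^ 2))
    (h2 : ∀ k, SLe F G (fun l x => -W k l x) (fun l x => K * e l x ^ 2)) {δ : ℝ}
    (hδ : 0 < δ) :
    SLe F G (fun l x => ∑ k, a k l * W k l x) (fun l x => δ * e l x ^ 2) := by
  classical
  set δ' : ℝ := δ / ((Fintype.card κ : ℝ) + 1) / (K + 1) with hδ'
  have hδp : 0 < δ' := by positivity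
  have hk : ∀ k, SLe F G (fun l x => a k l * W k l x) (fun l x => (δ' * K) * e l x ^ 2) := by
    intro k
    have t1 : ∀ᶠ l in F, 0 ≤ (δ' + a k l) / 2 := by
      filter_upwards [(ha k).eventually_const_lt (show -δ' < 0 by linarith)] with l hl
      linarith
    have t2 : ∀ᶠ l in F, 0 ≤ (δ' - a k l) / 2 := by
      filter_upwards [(ha k).eventually_lt_const hδp] with l hl
      linarith
    refine SosF.congr' (((SosF.left t1).mul (h1 k)).add ((SosF.left t2).mul (h2 k)))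
      fun l x => ?_
    ring
  have hsum : SLe F G (fun l x => ∑ k, a k l * W k l x)
      (fun l x => ∑ k : κ, (δ' * K) * e l x ^ 2) := by
    refine SosF.congr' (SosF.sum Finset.univ fun k _ => hk k) fun l x => ?_
    rw [Finset.sum_sub_distrib]
  refine hsum.trans ?_
  have h3 : 0 ≤ δ - (Fintype.card κ : ℝ) * (δ' * K) := by
    have e1 : (Fintype.card κ : ℝ) * (δ' * K) =
        δ * ((Fintype.card κ : ℝ) / ((Fintype.card κ : ℝ) + 1)) * (K / (K + 1)) := by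
      rw [hδ']; field_simp
    have e2 : (Fintype.card κ : ℝ) / ((Fintype.card κ : ℝ) + 1) ≤ 1 := by
      rw [div_le_one (by positivity)]; linarith
    have e3 : K / (K + 1) ≤ 1 := by
      rw [div_le_one (by positivity)]; linarith
    have e4 : 0 ≤ K / (K + 1) := by positivity
    have e5 : δ * ((Fintype.card κ : ℝ) / ((Fintype.card κ : ℝ) + 1)) ≤ δ := by nlinarith
    have e6 : 0 ≤ δ * ((Fintype.card κ : ℝ) / ((Fintype.card κ : ℝ) + 1)) := by positivity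
    rw [e1]
    nlinarith
  refine SosF.congr' (SosF.smul h3 (SosF.sq he)) fun l x => ?_
  show δ * e l x ^ 2 - ∑ k : κ, (δ' * K) * e l x ^ 2 = _
  rw [Finset.sum_const, Finset.card_univ, nsmul_eq_mul]
  ring

/-- **(A-i)** -/
theorem sosF_stepA {D : Matrix ν ν ℝ} {A1 A2 : Matrix ε ε ℝ}
    {tL hL sL : L → ℝ} {CL : L → Matrix ν ε ℝ} {NL : L → Matrix ν ν ℝ}
    {tX hX sX : X → ℝ} {CX : X → Matrix ν ε ℝ} {NX : X → Matrix ν ν ℝ}
    {ξ : L → ε ⊕ ν → ℝ} {η : ε → ℝ}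
    (hker : ∀ᶠ l in F, pen (tL l) (hL l) D (A1 + sL l • A2) (CL l) (NL l) *ᵥ ξ l = 0)
    (hLne : ∀ᶠ l in F, hL l ≠ 0)
    (hpsd : ∀ᶠ x in G, (pen (tX x) (hX x) D (A1 + sX x • A2) (CX x) (NX x)).PosSemidef)
    {s1 : ℝ} (hsX : ∀ᶠ x in G, |sX x| ≤ s1)
    {σ : ℝ} (hσ : σ = 1 ∨ σ = -1) (hsign : ∀ᶠ x in G, 0 < σ * hX x)
    {c : ℝ} (htX : ∀ᶠ x in G, tX x ≤ c * |hX x|)
    (hξE : ∀ i, Tendsto (fun l => ξ l (Sum.inl i)) F (𝓝 (η i)))
    (hξN : ∀ j, Tendsto (fun l => ξ l (Sum.inr j)) F (𝓝 0))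
    (hη : η ⬝ᵥ η = 1) (hn : A2 *ᵥ η ≠ (η ⬝ᵥ (A2 *ᵥ η)) • η)
    {K : ℝ} (hK : 0 ≤ K)
    (N1 : ∀ j i, SLe F G (fun l x => (CX x j i - CL l j i) ^ 2)
      (fun l x => K * (sX x - sL l) ^ 2))
    {Er : L → X → ℝ}
    (hEr : ∀ δ : ℝ, 0 < δ → SLe F G (fun l x => σ * Er l x) (fun l x => δ * (sX x - sL l) ^ 2))
    {S : L → X → ℝ}
    (hS : EqF F G S (fun l x => ξ l ⬝ᵥ
      (pen (tX x) (hX x) D (A1 + sX x • A2) (CX x) (NX x) *ᵥ ξ l) - hX x * Er l x)) :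
    (∃ C : ℝ, 0 ≤ C ∧ SLe F G (fun l x => |hX x| * (sX x - sL l) ^ 2) (fun l x => C * (ξ l ⬝ᵥ
      (pen (tX x) (hX x) D (A1 + sX x • A2) (CX x) (NX x) *ᵥ ξ l)))) ∧ SosF F G S := by
  classical
  set M : X → Matrix (ε ⊕ ν) (ε ⊕ ν) ℝ :=
    fun x => pen (tX x) (hX x) D (A1 + sX x • A2) (CX x) (NX x) with hMdef
  set Q : L → X → ℝ := fun l x => ξ l ⬝ᵥ (M x *ᵥ ξ l) with hQdef
  have hQ : SosF F G Q := by
    refine (sosF_psd (F := F) hpsd ξ).congr' fun l x => ?_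
    rw [hQdef]; simp only
    rw [dot_mulVec_eq]
  -- the test vector
  set xe : L → ε → ℝ := fun l i => ξ l (Sum.inl i) with hxe
  set xn : L → ν → ℝ := fun l j => ξ l (Sum.inr j) with hxn
  set kap : L → ℝ := fun l => (xe l ⬝ᵥ (A2 *ᵥ xe l)) / (xe l ⬝ᵥ xe l) with hkap
  set v : L → ε → ℝ := fun l => A2 *ᵥ xe l - kap l • xe l with hv
  set v0 : ε → ℝ := A2 *ᵥ η - (η ⬝ᵥ (A2 *ᵥ η)) • η with hv0
  have hv0ne : v0 ≠ 0 := fun h => hn (sub_eq_zero.1 h)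
  have txe : Tendsto xe F (𝓝 η) := tendsto_pi_nhds.2 hξE
  have tnn : Tendsto (fun l => xe l ⬝ᵥ xe l) F (𝓝 1) := by
    have hc : Continuous fun w : ε → ℝ => w ⬝ᵥ w := by
      simp only [dotProduct]; fun_prop
    have := (hc.tendsto η).comp txe
    rwa [hη] at this
  have tA2 : Tendsto (fun l => A2 *ᵥ xe l) F (𝓝 (A2 *ᵥ η)) := by
    have hc : Continuous fun w : ε → ℝ => A2 *ᵥ w := by
      refine continuous_pi fun i => ?_
      simp only [Matrix.mulVec, dotProduct]; fun_prop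
    exact (hc.tendsto η).comp txe
  have tq : Tendsto (fun l => xe l ⬝ᵥ (A2 *ᵥ xe l)) F (𝓝 (η ⬝ᵥ (A2 *ᵥ η))) := by
    have hc : Continuous fun w : ε → ℝ => w ⬝ᵥ (A2 *ᵥ w) := by
      simp only [Matrix.mulVec, dotProduct]; fun_prop
    exact (hc.tendsto η).comp txe
  have tkap : Tendsto kap F (𝓝 (η ⬝ᵥ (A2 *ᵥ η))) := by
    have := tq.div tnn one_ne_zero
    rw [div_one] at this
    exact this
  have tv : Tendsto v F (𝓝 v0) := tA2.sub (tkap.smul txe)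
  have hnn0 : ∀ᶠ l in F, xe l ⬝ᵥ xe l ≠ 0 := tnn.eventually_ne one_ne_zero
  have hvperp : ∀ᶠ l in F, v l ⬝ᵥ xe l = 0 := by
    filter_upwards [hnn0] with l hl
    rw [hv]; simp only
    rw [sub_dotProduct, smul_dotProduct, smul_eq_mul, hkap]
    simp only
    rw [div_mul_cancel₀ _ hl, dotProduct_comm, sub_self]
  have hvA : ∀ᶠ l in F, v l ⬝ᵥ (A2 *ᵥ xe l) = v l ⬝ᵥ v l := by
    filter_upwards [hvperp] with l hl
    have h1 : A2 *ᵥ xe l = v l + kap l • xe l := by rw [hv]; simp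
    rw [h1, dotProduct_add, dotProduct_smul, hl, smul_zero, add_zero]
  set nv : L → ℝ := fun l => v l ⬝ᵥ v l with hnv
  set c0 : ℝ := v0 ⬝ᵥ v0 with hc0
  have hc0pos : 0 < c0 := by
    have h1 : v0 ⬝ᵥ v0 ≠ 0 := fun h => hv0ne (dotProduct_self_eq_zero.1 h)
    have h2 : 0 ≤ v0 ⬝ᵥ v0 := Finset.sum_nonneg fun i _ => mul_self_nonneg _
    exact lt_of_le_of_ne h2 (Ne.symm h1)
  have tnv : Tendsto nv F (𝓝 c0) := by
    have hc : Continuous fun w : ε → ℝ => w ⬝ᵥ w := by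
      simp only [dotProduct]; fun_prop
    exact (hc.tendsto v0).comp tv
  have hnvlow : ∀ᶠ l in F, c0 / 2 < nv l := tnv.eventually_const_lt (by linarith)
  -- the row
  set R : L → X → ℝ := fun l x => ∑ p : ν × ε, (v l p.2 * xn l p.1) * (CX x p.1 p.2 - CL l p.1 p.2)
    with hR
  have hrow : EqF F G (fun l x => (Sum.elim (v l) (fun _ => 0)) ⬝ᵥ (M x *ᵥ ξ l))
      (fun l x => hX x * (nv l * (sX x - sL l) + R l x)) := by
    refine EqF.of_eventually _ (fun _ => True) (hker.and (hLne.and (hvperp.and hvA))) (by simp)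
      fun l x hl _ => ?_
    obtain ⟨hk, hne, hp, hq⟩ := hl
    have e1 := pen_test_inl (tL l) (hL l) D (A1 + sL l • A2) (CL l) (NL l) (v l) (ξ l)
    rw [hk, dotProduct_zero] at e1
    have e2 := pen_test_inl (tX x) (hX x) D (A1 + sX x • A2) (CX x) (NX x) (v l) (ξ l)
    have hp' : v l ⬝ᵥ (fun i => ξ l (Sum.inl i)) = 0 := hp
    rw [hp', mul_zero, zero_add] at e1 e2
    have e3 := (mul_eq_zero.1 e1.symm).resolve_left hne
    rw [Matrix.add_mulVec, Matrix.smul_mulVec, dotProduct_add, dotProduct_smul, smul_eq_mul]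
      at e3 e2
    have hq' : v l ⬝ᵥ (A2 *ᵥ (fun i => ξ l (Sum.inl i))) = nv l := hq
    rw [hq'] at e3 e2
    have e4 : v l ⬝ᵥ ((CX x)ᵀ *ᵥ (fun j => ξ l (Sum.inr j))) -
        v l ⬝ᵥ ((CL l)ᵀ *ᵥ (fun j => ξ l (Sum.inr j))) = R l x := by
      rw [hR]
      simp only [Fintype.sum_prod_type]
      rw [Finset.sum_comm]
      simp only [dotProduct, Matrix.mulVec, Matrix.transpose_apply, Finset.mul_sum,
        ← Finset.sum_sub_distrib]
      exact Finset.sum_congr rfl fun i _ => Finset.sum_congr rfl fun j _ => by ring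
    show (Sum.elim (v l) (fun _ => 0)) ⬝ᵥ (M x *ᵥ ξ l) = _
    rw [hMdef]; simp only
    rw [e2, ← e4]
    linear_combination (hX x) * e3
  -- bound of the diagonal entry
  obtain ⟨c1, hc1, hc1b⟩ := form_bound A1
  obtain ⟨c2, hc2, hc2b⟩ := form_bound A2
  set C0 : ℝ := |c| + c1 + |s1| * c2 + 1 with hC0
  have hC0pos : 0 < C0 := by positivity
  have hdiag : SosF F G (fun l x => C0 * |hX x| * nv l -
      (Sum.elim (v l) (fun _ => 0)) ⬝ᵥ (M x *ᵥ (Sum.elim (v l) (fun _ => 0)))) := by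
    have hps : ∀ᶠ x in G, ((C0 * |hX x|) • (1 : Matrix ε ε ℝ) -
        (tX x • (1 : Matrix ε ε ℝ) + hX x • (A1 + sX x • A2))).PosSemidef := by
      filter_upwards [hpsd, hsX, htX] with x hx hs ht
      have hsub : (tX x • (1 : Matrix ε ε ℝ) + hX x • (A1 + sX x • A2)).IsHermitian := by
        have h1 := hx.1
        have h2 : ∀ i j, (pen (tX x) (hX x) D (A1 + sX x • A2) (CX x) (NX x))
            (Sum.inl i) (Sum.inl j) = (tX x • (1 : Matrix ε ε ℝ) +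
              hX x • (A1 + sX x • A2)) i j := by
          intro i j
          simp [pen, Matrix.one_apply, mul_add]
        ext i j
        have h3 := congrFun (congrFun h1 (Sum.inl i)) (Sum.inl j)
        rw [Matrix.conjTranspose_apply, h2, h2] at h3
        rw [Matrix.conjTranspose_apply]
        exact h3
      refine Matrix.PosSemidef.of_dotProduct_mulVec_nonneg (?_) (fun w => ?_)
      · refine Matrix.IsHermitian.sub ?_ hsub
        rw [Matrix.IsHermitian, Matrix.conjTranspose_smul, Matrix.conjTranspose_one]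
        simp
      · rw [star_trivial, Matrix.sub_mulVec, dotProduct_sub, Matrix.add_mulVec, dotProduct_add,
          Matrix.smul_mulVec, Matrix.smul_mulVec, Matrix.smul_mulVec, Matrix.one_mulVec,
          dotProduct_smul, dotProduct_smul, dotProduct_smul, Matrix.add_mulVec,
          Matrix.smul_mulVec, dotProduct_add, dotProduct_smul]
        simp only [smul_eq_mul]
        have hw : 0 ≤ w ⬝ᵥ w := Finset.sum_nonneg fun i _ => mul_self_nonneg _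
        have b1 := hc1b w
        have b2 := hc2b w
        have b3 : hX x * (w ⬝ᵥ A1 *ᵥ w + sX x * (w ⬝ᵥ A2 *ᵥ w)) ≤
            |hX x| * ((c1 + |s1| * c2) * (w ⬝ᵥ w)) := by
          refine (le_abs_self _).trans ?_
          rw [abs_mul]
          refine mul_le_mul_of_nonneg_left ?_ (abs_nonneg _)
          refine (abs_add_le _ _).trans ?_
          rw [abs_mul]
          have b4 : |sX x| * |w ⬝ᵥ A2 *ᵥ w| ≤ |s1| * (c2 * (w ⬝ᵥ w)) :=
            mul_le_mul (hs.trans (le_abs_self _)) b2 (abs_nonneg _) (abs_nonneg _)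
          linarith
        have b5 : tX x * (w ⬝ᵥ w) ≤ |c| * |hX x| * (w ⬝ᵥ w) := by
          refine mul_le_mul_of_nonneg_right (ht.trans ?_) hw
          exact mul_le_mul_of_nonneg_right (le_abs_self c) (abs_nonneg _)
        have b6 : 0 ≤ |hX x| * (w ⬝ᵥ w) := mul_nonneg (abs_nonneg _) hw
        rw [hC0]
        nlinarith
    refine (sosF_psd (F := F) hps v).congr' fun l x => ?_
    rw [← dot_mulVec_eq, Matrix.sub_mulVec, dotProduct_sub, Matrix.add_mulVec, dotProduct_add,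
      Matrix.smul_mulVec, Matrix.smul_mulVec, Matrix.smul_mulVec, Matrix.one_mulVec,
      dotProduct_smul, dotProduct_smul, dotProduct_smul]
    simp only [smul_eq_mul]
    have e2 := pen_test_inl (tX x) (hX x) D (A1 + sX x • A2) (CX x) (NX x) (v l)
      (Sum.elim (v l) (fun _ => 0))
    rw [hMdef]; simp only
    rw [e2]
    have e3 : (fun i => (Sum.elim (v l) (fun _ => (0 : ℝ)) : ε ⊕ ν → ℝ) (Sum.inl i)) = v l := rfl
    have e4 : (fun j => (Sum.elim (v l) (fun _ => (0 : ℝ)) : ε ⊕ ν → ℝ) (Sum.inr j)) = 0 := rfl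
    rw [e3, e4, Matrix.mulVec_zero, dotProduct_zero, add_zero]
  -- Cauchy-Schwarz
  have hcs := sosF_cs (F := F) hpsd (fun l => (Sum.elim (v l) (fun _ => (0 : ℝ)) : ε ⊕ ν → ℝ)) ξ
  have h1 : SosF F G (fun l x => C0 * |hX x| * nv l * Q l x -
      (hX x * (nv l * (sX x - sL l) + R l x)) ^ 2) := by
    have h2 := (hdiag.mul hQ).add hcs
    refine h2.congr ?_
    obtain ⟨A, hA, B, hB, e⟩ := hrow
    refine ⟨A, hA, B, hB, fun l hl x hx => ?_⟩
    have e1 : (Sum.elim (v l) (fun _ => (0 : ℝ)) : ε ⊕ ν → ℝ) ⬝ᵥ (M x *ᵥ ξ l) =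
      hX x * (nv l * (sX x - sL l) + R l x) := e l hl x hx
    show C0 * |hX x| * nv l * Q l x - (hX x * (nv l * (sX x - sL l) + R l x)) ^ 2 = _
    rw [← e1]
    show _ = (C0 * |hX x| * nv l - (Sum.elim (v l) (fun _ => (0 : ℝ)) : ε ⊕ ν → ℝ) ⬝ᵥ
      (M x *ᵥ (Sum.elim (v l) (fun _ => (0 : ℝ)) : ε ⊕ ν → ℝ))) * Q l x +
      (((Sum.elim (v l) (fun _ => (0 : ℝ)) : ε ⊕ ν → ℝ) ⬝ᵥ
      (M x *ᵥ (Sum.elim (v l) (fun _ => (0 : ℝ)) : ε ⊕ ν → ℝ))) * Q l x -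
      ((Sum.elim (v l) (fun _ => (0 : ℝ)) : ε ⊕ ν → ℝ) ⬝ᵥ (M x *ᵥ ξ l)) ^ 2)
    ring
  have hhne : ∀ᶠ x in G, hX x ≠ 0 := by
    filter_upwards [hsign] with x hx h0
    rw [h0, mul_zero] at hx
    exact lt_irrefl _ hx
  -- divide by |h| nv²
  have h3 : SLe F G (fun l x => |hX x| * ((sX x - sL l) + (nv l)⁻¹ * R l x) ^ 2)
      (fun l x => (2 * C0 / c0) * Q l x) := by
    have h4 := ((SosF.left (F := F) (G := G) (a := fun l => ((nv l)⁻¹) ^ 2)
      (Eventually.of_forall fun l => sq_nonneg _)).mul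
      (SosF.right (F := F) (G := G) (f := fun x => |hX x|⁻¹)
      (Eventually.of_forall fun x => inv_nonneg.2 (abs_nonneg _)))).mul h1
    have h5 : ∀ᶠ l in F, 0 ≤ 2 * C0 / c0 - C0 * (nv l)⁻¹ := by
      filter_upwards [hnvlow] with l hl
      have h6 : (nv l)⁻¹ ≤ (c0 / 2)⁻¹ := inv_anti₀ (by positivity) hl.le
      have h7 : (c0 / 2)⁻¹ = 2 / c0 := by rw [inv_div]
      rw [h7] at h6
      have h8 : C0 * (nv l)⁻¹ ≤ C0 * (2 / c0) := mul_le_mul_of_nonneg_left h6 hC0pos.le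
      have h9 : C0 * (2 / c0) = 2 * C0 / c0 := by ring
      linarith
    have h6 := (SosF.left (G := G) h5).mul hQ
    refine (h4.add h6).congr (EqF.of_eventually _ _ hnvlow hhne fun l x hl hx => ?_)
    have hnl : nv l ≠ 0 := by
      have : 0 < c0 / 2 := by positivity
      linarith [hl] |> fun h : 0 < nv l => h.ne'
    have hax : |hX x| ≠ 0 := abs_ne_zero.2 hx
    have e1 : hX x ^ 2 = |hX x| ^ 2 := (sq_abs _).symm
    have e2 : (hX x * (nv l * (sX x - sL l) + R l x)) ^ 2 =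
        |hX x| ^ 2 * (nv l) ^ 2 * ((sX x - sL l) + (nv l)⁻¹ * R l x) ^ 2 := by
      rw [mul_pow, e1]
      field_simp
    rw [e2]
    field_simp
    ring
  -- the remainder is small
  have hfe : FR (fun l x => sX x - sL l) := (FR.right sX).sub (FR.left sL)
  have hRsmall : SLe F G (fun l x => ((nv l)⁻¹ * R l x) ^ 2)
      (fun l x => (1 / 4) * (sX x - sL l) ^ 2) := by
    have h4 := sle_small_comb (F := F) (G := G) (κ := ν × ε)
      (a := fun p l => (nv l)⁻¹ * (v l p.2 * xn l p.1))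
      (d := fun p l x => CX x p.1 p.2 - CL l p.1 p.2) (e := fun l x => sX x - sL l) hfe
      (fun p => (FR.right fun x => CX x p.1 p.2).sub (FR.left fun l => CL l p.1 p.2))
      (fun p => by
        have t1 : Tendsto (fun l => (nv l)⁻¹) F (𝓝 c0⁻¹) := tnv.inv₀ hc0pos.ne'
        have t2 : Tendsto (fun l => v l p.2) F (𝓝 (v0 p.2)) :=
          ((continuous_apply p.2).tendsto v0).comp tv
        have t3 := t1.mul (t2.mul (hξN p.1))
        simpa using t3)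
      hK (fun p => N1 p.1 p.2) (δ := 1 / 4) (by norm_num)
    refine SLe.congr_left h4 ⟨Set.univ, univ_mem, Set.univ, univ_mem, fun l _ x _ => ?_⟩
    rw [hR]; simp only
    rw [Finset.mul_sum]
    congr 1
    exact Finset.sum_congr rfl fun p _ => by ring
  have hfR : FR (fun l x => (nv l)⁻¹ * R l x) := by
    refine (FR.left _).mul (FR.sum _ fun p _ => ?_)
    exact (FR.left _).mul ((FR.right fun x => CX x p.1 p.2).sub (FR.left fun l => CL l p.1 p.2))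
  have h7 : SLe F G (fun l x => |hX x| * (sX x - sL l) ^ 2)
      (fun l x => (8 * C0 / c0) * Q l x) := by
    -- 1/4 e² ≤ 1/2 e² - r² ≤ (e + r)²
    have h8 : SosF F G (fun l x => 1 / 2 * ((sX x - sL l) + 2 * ((nv l)⁻¹ * R l x)) ^ 2) :=
      SosF.smul (by norm_num) (SosF.sq (hfe.add ((FR.const 2).mul hfR)))
    have h9 := (SosF.right (F := F) (G := G) (f := fun x => |hX x|)
      (Eventually.of_forall fun x => abs_nonneg _)).mul (h8.add hRsmall)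
    have h10 := SosF.add (SosF.smul (c := 4) (by norm_num) h3) (SosF.smul (c := 4) (by norm_num) h9)
    refine SosF.congr' h10 fun l x => ?_
    ring
  have hCpos : 0 ≤ 8 * C0 / c0 := by positivity
  refine ⟨⟨8 * C0 / c0, hCpos, h7⟩, ?_⟩
  set C' : ℝ := 8 * C0 / c0 with hC'
  have h8 := hEr (1 / (2 * C' + 2)) (by positivity)
  have h9 := (SosF.right (F := F) (G := G) (f := fun x => |hX x|)
      (Eventually.of_forall fun x => abs_nonneg _)).mul h8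
  have h10 := SosF.smul (c := 1 / (2 * C' + 2)) (by positivity) h7
  have h11 : 0 ≤ 1 - 1 / (2 * C' + 2) * C' := by
    have : 1 / (2 * C' + 2) * C' ≤ 1 := by
      rw [div_mul_eq_mul_div, div_le_one (by positivity)]
      linarith
    linarith
  have h12 := SosF.smul h11 hQ
  refine ((h9.add h10).add h12).congr (hS.trans ?_)
  refine EqF.of_eventually (fun _ => True) _ (by simp) hsign fun l x _ hx => ?_
  have e1 : hX x = σ * |hX x| := by
    rcases hσ with h | h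
    · rw [h] at hx ⊢
      rw [one_mul] at hx ⊢
      exact (abs_of_pos hx).symm
    · rw [h] at hx ⊢
      have : hX x < 0 := by linarith
      rw [abs_of_neg this]; ring
  have e2 : hX x * Er l x = |hX x| * (σ * Er l x) := by
    conv_lhs => rw [e1]
    ring
  show Q l x - hX x * Er l x = _
  rw [e2]
  ring

/-- smallness of the remainder of the pencil at `z` -/
theorem rem_small {e : L → X → ℝ} (he : FR e) {ξ : L → ε ⊕ ν → ℝ} {η : ε → ℝ}
    (hξE : ∀ i, Tendsto (fun l => ξ l (Sum.inl i)) F (𝓝 (η i)))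
    (hξN : ∀ j, Tendsto (fun l => ξ l (Sum.inr j)) F (𝓝 0)) {K : ℝ} (hK : 0 ≤ K)
    {Wc : ν → ε → L → X → ℝ} {Wn : ν → ν → L → X → ℝ}
    (c1 : ∀ j i, SLe F G (fun l x => Wc j i l x) (fun l x => K * e l x ^ 2))
    (c2 : ∀ j i, SLe F G (fun l x => -Wc j i l x) (fun l x => K * e l x ^ 2))
    (n1 : ∀ j i, SLe F G (fun l x => Wn j i l x) (fun l x => K * e l x ^ 2))
    (n2 : ∀ j i, SLe F G (fun l x => -Wn j i l x) (fun l x => K * e l x ^ 2))
    (σ : ℝ) {δ : ℝ} (hδ : 0 < δ) :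
    SLe F G (fun l x => σ * (2 * ∑ j, ∑ i, ξ l (Sum.inr j) * ξ l (Sum.inl i) * Wc j i l x +
      ∑ j, ∑ i, ξ l (Sum.inr j) * ξ l (Sum.inr i) * Wn j i l x))
      (fun l x => δ * e l x ^ 2) := by
  have h1 := sle_small_lin (F := F) (G := G) (κ := (ν × ε) ⊕ (ν × ν))
    (a := Sum.elim (fun p l => σ * 2 * (ξ l (Sum.inr p.1) * ξ l (Sum.inl p.2)))
      (fun p l => σ * (ξ l (Sum.inr p.1) * ξ l (Sum.inr p.2))))
    (W := Sum.elim (fun p => Wc p.1 p.2) (fun p => Wn p.1 p.2)) he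
    (by
      rintro (p | p)
      · have := ((hξN p.1).mul (hξE p.2)).const_mul (σ * 2)
        simpa using this
      · have := ((hξN p.1).mul (hξN p.2)).const_mul σ
        simpa using this) hK
    (by rintro (p | p); exacts [c1 _ _, n1 _ _]) (by rintro (p | p); exacts [c2 _ _, n2 _ _]) hδ
  refine SLe.congr_left h1 ⟨Set.univ, univ_mem, Set.univ, univ_mem, fun l _ x _ => ?_⟩
  simp only [Fintype.sum_sum_type, Sum.elim_inl, Sum.elim_inr, Fintype.sum_prod_type]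
  rw [mul_add]
  congr 1
  · simp only [Finset.mul_sum]
    exact Finset.sum_congr rfl fun i _ => Finset.sum_congr rfl fun j _ => by ring
  · simp only [Finset.mul_sum]
    exact Finset.sum_congr rfl fun i _ => Finset.sum_congr rfl fun j _ => by ring

end SosA

section ZOne

variable {ε ν : Type*} [Fintype ε] [Fintype ν] [DecidableEq ε] [DecidableEq ν]

/-- the exact identity behind (Z1) -/
theorem z1_identity {t h : ℝ} {D : Matrix ν ν ℝ} {A : Matrix ε ε ℝ} {C : Matrix ν ε ℝ}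
    {N : Matrix ν ν ℝ} {ξ : ε ⊕ ν → ℝ} (hker : pen t h D A C N *ᵥ ξ = 0) :
    t * ((fun j => ξ (Sum.inr j)) ⬝ᵥ (fun j => ξ (Sum.inr j))) +
      (fun j => ξ (Sum.inr j)) ⬝ᵥ (D *ᵥ (fun j => ξ (Sum.inr j))) +
      h * ((fun j => ξ (Sum.inr j)) ⬝ᵥ (N *ᵥ (fun j => ξ (Sum.inr j)))) =
    t * ((fun i => ξ (Sum.inl i)) ⬝ᵥ (fun i => ξ (Sum.inl i))) +
      h * ((fun i => ξ (Sum.inl i)) ⬝ᵥ (A *ᵥ (fun i => ξ (Sum.inl i)))) := by
  set xe : ε → ℝ := fun i => ξ (Sum.inl i) with hxe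
  set xn : ν → ℝ := fun j => ξ (Sum.inr j) with hxn
  have e1 : t * (xe ⬝ᵥ xe) + h * (xe ⬝ᵥ (A *ᵥ xe) + xe ⬝ᵥ (Cᵀ *ᵥ xn)) = 0 := by
    rw [← pen_test_inl t h D A C N xe ξ, hker, dotProduct_zero]
  have e2 : t * (xn ⬝ᵥ xn) + xn ⬝ᵥ (D *ᵥ xn) + h * (xn ⬝ᵥ (C *ᵥ xe) + xn ⬝ᵥ (N *ᵥ xn)) = 0 := by
    have h1 : ∀ j, t * xn j + (D *ᵥ xn) j + h * ((C *ᵥ xe) j + (N *ᵥ xn) j) = 0 := by
      intro j
      have h2 := congrFun hker (Sum.inr j)
      rw [pen_mulVec_inr] at h2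
      exact h2
    have h3 : ∑ j, xn j * (t * xn j + (D *ᵥ xn) j + h * ((C *ᵥ xe) j + (N *ᵥ xn) j)) = 0 :=
      Finset.sum_eq_zero fun j _ => by rw [h1 j, mul_zero]
    rw [← h3]
    simp only [dotProduct, Finset.mul_sum, mul_add, Finset.sum_add_distrib]
    congr 1
    · congr 1
      exact Finset.sum_congr rfl fun j _ => by ring
    · congr 1
      · exact Finset.sum_congr rfl fun j _ => by ring
      · exact Finset.sum_congr rfl fun j _ => by ring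
  have e3 : xn ⬝ᵥ (C *ᵥ xe) = xe ⬝ᵥ (Cᵀ *ᵥ xn) := by
    rw [Matrix.dotProduct_mulVec, Matrix.mulVec_transpose, dotProduct_comm]
  rw [e3] at e2
  linarith

/-- a positive definite form is bounded below -/
theorem posdef_low {D : Matrix ν ν ℝ} (hD : D.PosDef) :
    ∃ d0 : ℝ, 0 < d0 ∧ ∀ w : ν → ℝ, d0 * (w ⬝ᵥ w) ≤ w ⬝ᵥ (D *ᵥ w) := by
  have hDu : IsUnit D.det := (Matrix.isUnit_iff_isUnit_det D).1 hD.isUnit
  obtain ⟨c, hc, hcb⟩ := form_bound (D⁻¹)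
  refine ⟨(c + 1)⁻¹, by positivity, fun w => ?_⟩
  have h3 := psd_cs hD.posSemidef ((c + 1)⁻¹ • (D⁻¹ *ᵥ w)) w
  have e1 : D *ᵥ (D⁻¹ *ᵥ w) = w := by
    rw [Matrix.mulVec_mulVec, Matrix.mul_nonsing_inv _ hDu, Matrix.one_mulVec]
  have e2 : (D⁻¹ *ᵥ w) ⬝ᵥ (D *ᵥ w) = w ⬝ᵥ w := by
    rw [herm_swap hD.1, e1]
  rw [Matrix.mulVec_smul, e1, smul_dotProduct, smul_dotProduct, dotProduct_smul, e2] at h3
  simp only [smul_eq_mul] at h3
  have h4 : (D⁻¹ *ᵥ w) ⬝ᵥ w ≤ c * (w ⬝ᵥ w) := by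
    rw [dotProduct_comm]
    exact (le_abs_self _).trans (hcb w)
  have h5 : 0 ≤ w ⬝ᵥ w := Finset.sum_nonneg fun i _ => mul_self_nonneg _
  have h6 : 0 < (c + 1)⁻¹ := by positivity
  have h7 : (c + 1)⁻¹ * ((c + 1)⁻¹ * ((D⁻¹ *ᵥ w) ⬝ᵥ w)) ≤ (c + 1)⁻¹ * (w ⬝ᵥ w) := by
    refine mul_le_mul_of_nonneg_left ?_ h6.le
    calc (c + 1)⁻¹ * ((D⁻¹ *ᵥ w) ⬝ᵥ w) ≤ (c + 1)⁻¹ * (c * (w ⬝ᵥ w)) :=
          mul_le_mul_of_nonneg_left h4 h6.le
      _ = ((c + 1)⁻¹ * c) * (w ⬝ᵥ w) := by ring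
      _ ≤ 1 * (w ⬝ᵥ w) := by
          refine mul_le_mul_of_nonneg_right ?_ h5
          rw [inv_mul_le_iff₀ (by positivity)]; linarith
      _ = w ⬝ᵥ w := one_mul _
  linarith

/-- bound of a form by a bound of the entries -/
theorem form_bound' {N : Matrix ν ν ℝ} {n1 : ℝ} (hN : ∀ i j, |N i j| ≤ n1) (w : ν → ℝ) :
    |w ⬝ᵥ (N *ᵥ w)| ≤ |n1| * (Fintype.card ν : ℝ) * (w ⬝ᵥ w) := by
  rw [dot_mulVec_eq]
  refine (Finset.abs_sum_le_sum_abs _ _).trans ?_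
  have h3 : ∀ i, |∑ j, N i j * w i * w j| ≤ ∑ j, |n1| * ((w i ^ 2 + w j ^ 2) / 2) := by
    intro i
    refine (Finset.abs_sum_le_sum_abs _ _).trans (Finset.sum_le_sum fun j _ => ?_)
    rw [mul_assoc, abs_mul]
    refine mul_le_mul ((hN i j).trans (le_abs_self _)) ?_ (abs_nonneg _) (abs_nonneg _)
    rw [abs_le]
    constructor <;> nlinarith [sq_nonneg (w i + w j), sq_nonneg (w i - w j)]
  refine (Finset.sum_le_sum fun i _ => h3 i).trans (le_of_eq ?_)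
  have e9 : w ⬝ᵥ w = ∑ i, w i ^ 2 := by
    simp only [dotProduct]
    exact Finset.sum_congr rfl fun i _ => by ring
  rw [e9]
  have h4 : ∀ i, ∑ j, |n1| * ((w i ^ 2 + w j ^ 2) / 2) =
      |n1| / 2 * (Fintype.card ν : ℝ) * w i ^ 2 + |n1| / 2 * ∑ j, w j ^ 2 := by
    intro i
    rw [← Finset.mul_sum, ← Finset.sum_div, Finset.sum_add_distrib, Finset.sum_const,
      Finset.card_univ, nsmul_eq_mul]
    ring
  rw [Finset.sum_congr rfl (fun i _ => h4 i), Finset.sum_add_distrib, ← Finset.mul_sum,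
    Finset.sum_const, Finset.card_univ, nsmul_eq_mul]
  ring

/-- the form of the first block of a psd pencil -/
theorem pen_form_inl {t h : ℝ} {D : Matrix ν ν ℝ} {A : Matrix ε ε ℝ} {C : Matrix ν ε ℝ}
    {N : Matrix ν ν ℝ} (hp : (pen t h D A C N).PosSemidef) (w : ε → ℝ) :
    0 ≤ t * (w ⬝ᵥ w) + h * (w ⬝ᵥ (A *ᵥ w)) := by
  have h3 := psd_nonneg hp (Sum.elim w (fun _ => 0))
  rw [pen_test_inl] at h3
  have e3 : (fun i => (Sum.elim w (fun _ => (0 : ℝ)) : ε ⊕ ν → ℝ) (Sum.inl i)) = w := rfl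
  have e4 : (fun j => (Sum.elim w (fun _ => (0 : ℝ)) : ε ⊕ ν → ℝ) (Sum.inr j)) = 0 := rfl
  rw [e3, e4, Matrix.mulVec_zero, dotProduct_zero, add_zero] at h3
  exact h3

theorem pen_herm_inl {t h : ℝ} {D : Matrix ν ν ℝ} {A : Matrix ε ε ℝ} {C : Matrix ν ε ℝ}
    {N : Matrix ν ν ℝ} (hp : (pen t h D A C N).PosSemidef) :
    (t • (1 : Matrix ε ε ℝ) + h • A).IsHermitian := by
  have h3 := hp.1
  have h4 : ∀ i j, (pen t h D A C N) (Sum.inl i) (Sum.inl j) =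
      (t • (1 : Matrix ε ε ℝ) + h • A) i j := by
    intro i j
    simp [pen, Matrix.one_apply]
  ext i j
  have h5 := congrFun (congrFun h3 (Sum.inl i)) (Sum.inl j)
  rw [Matrix.conjTranspose_apply, h4, h4] at h5
  rw [Matrix.conjTranspose_apply]
  exact h5

/-- splitting off an eigenvector of the first block -/
theorem split_eig {B : Matrix ε ε ℝ} (hB : B.IsHermitian) (hpos : ∀ w : ε → ℝ, 0 ≤ w ⬝ᵥ (B *ᵥ w))
    {η : ε → ℝ} (hη : η ⬝ᵥ η = 1) {l0 : ℝ} (hBη : B *ᵥ η = l0 • η) (xe : ε → ℝ) :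
    (η ⬝ᵥ xe) ^ 2 * l0 ≤ xe ⬝ᵥ (B *ᵥ xe) := by
  set c : ℝ := η ⬝ᵥ xe with hcdef
  set χ : ε → ℝ := xe - c • η with hχ
  have hηχ : χ ⬝ᵥ η = 0 := by
    rw [hχ, sub_dotProduct, smul_dotProduct, hη, smul_eq_mul, mul_one, hcdef, dotProduct_comm,
      sub_self]
  have hxeq : xe = χ + c • η := by rw [hχ]; simp
  have e6 : χ ⬝ᵥ (B *ᵥ η) = 0 := by rw [hBη, dotProduct_smul, hηχ, smul_zero]
  have e7 : η ⬝ᵥ (B *ᵥ χ) = 0 := by rw [herm_swap hB, e6]
  have e8 : η ⬝ᵥ (B *ᵥ η) = l0 := by rw [hBη, dotProduct_smul, hη, smul_eq_mul, mul_one]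
  have e5 : xe ⬝ᵥ (B *ᵥ xe) = c ^ 2 * l0 + χ ⬝ᵥ (B *ᵥ χ) := by
    rw [hxeq, Matrix.mulVec_add, Matrix.mulVec_smul, add_dotProduct, dotProduct_add,
      dotProduct_add, smul_dotProduct, smul_dotProduct, dotProduct_smul, dotProduct_smul, e6,
      e7, e8]
    simp only [smul_eq_mul]
    ring
  rw [e5]
  have := hpos χ
  linarith

/-- one point version of (Z1) -/
theorem z1_point {t h : ℝ} {D : Matrix ν ν ℝ} {A : Matrix ε ε ℝ} {C : Matrix ν ε ℝ}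
    {N : Matrix ν ν ℝ} {ξ : ε ⊕ ν → ℝ} (hk : pen t h D A C N *ᵥ ξ = 0)
    (hp : (pen t h D A C N).PosSemidef) {η : ε → ℝ} (hη : η ⬝ᵥ η = 1) {lam : ℝ}
    (hA : A *ᵥ η = lam • η) {d0 n1 δ1 : ℝ} (hd0 : 0 < d0)
    (hDlow : ∀ w : ν → ℝ, d0 * (w ⬝ᵥ w) ≤ w ⬝ᵥ (D *ᵥ w)) (hN : ∀ i j, |N i j| ≤ n1)
    (hδ1 : 0 < δ1) (hb : |t| + |h| * (|n1| * (Fintype.card ν : ℝ)) ≤ δ1 * d0) :
    0 ≤ t + h * lam ∧ (η ⬝ᵥ (fun i => ξ (Sum.inl i))) ^ 2 * (t + h * lam) ≤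
      (1 + δ1) * ((fun j => ξ (Sum.inr j)) ⬝ᵥ (D *ᵥ (fun j => ξ (Sum.inr j)))) := by
  have hid := z1_identity hk
  set xe : ε → ℝ := fun i => ξ (Sum.inl i) with hxe
  set xn : ν → ℝ := fun j => ξ (Sum.inr j) with hxn
  set B : Matrix ε ε ℝ := t • (1 : Matrix ε ε ℝ) + h • A with hB
  have hBf : ∀ u w : ε → ℝ, u ⬝ᵥ (B *ᵥ w) = t * (u ⬝ᵥ w) + h * (u ⬝ᵥ (A *ᵥ w)) := by
    intro u w
    rw [hB, Matrix.add_mulVec, Matrix.smul_mulVec,
      Matrix.smul_mulVec, Matrix.one_mulVec, dotProduct_add, dotProduct_smul, dotProduct_smul,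
      smul_eq_mul, smul_eq_mul]
  have hBη : B *ᵥ η = (t + h * lam) • η := by
    rw [hB, Matrix.add_mulVec, Matrix.smul_mulVec,
      Matrix.smul_mulVec, Matrix.one_mulVec, hA, smul_smul, ← add_smul]
  have hpos : ∀ w : ε → ℝ, 0 ≤ w ⬝ᵥ (B *ᵥ w) := fun w => by
    rw [hBf]; exact pen_form_inl hp w
  have hkey := split_eig (pen_herm_inl hp) hpos hη hBη xe
  rw [hBf, ← hid] at hkey
  have hl0 : 0 ≤ t + h * lam := by
    have := hpos η
    rw [hBη, dotProduct_smul, hη, smul_eq_mul, mul_one] at this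
    exact this
  refine ⟨hl0, hkey.trans ?_⟩
  have hxn0 : 0 ≤ xn ⬝ᵥ xn := Finset.sum_nonneg fun i _ => mul_self_nonneg _
  have hNb := form_bound' hN xn
  have hDx := hDlow xn
  have h3 : t * (xn ⬝ᵥ xn) ≤ |t| * (xn ⬝ᵥ xn) :=
    mul_le_mul_of_nonneg_right (le_abs_self _) hxn0
  have h4 : h * (xn ⬝ᵥ (N *ᵥ xn)) ≤ |h| * (|n1| * (Fintype.card ν : ℝ) * (xn ⬝ᵥ xn)) := by
    refine (le_abs_self _).trans ?_
    rw [abs_mul]
    exact mul_le_mul_of_nonneg_left hNb (abs_nonneg _)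
  have h5 : (|t| + |h| * (|n1| * (Fintype.card ν : ℝ))) * (xn ⬝ᵥ xn) ≤ δ1 * d0 * (xn ⬝ᵥ xn) :=
    mul_le_mul_of_nonneg_right hb hxn0
  have h6 : δ1 * (d0 * (xn ⬝ᵥ xn)) ≤ δ1 * (xn ⬝ᵥ (D *ᵥ xn)) :=
    mul_le_mul_of_nonneg_left hDx hδ1.le
  linarith

/-- **(A-ii) = (Z1)**: if `η` is a common eigenvector then `(1-δ) l₀(y) ≤ l_y(z)`. -/
theorem z1_of_common {D : Matrix ν ν ℝ} (hD : D.PosDef) {A1 A2 : Matrix ε ε ℝ}
    {tL hL sL : L → ℝ} {CL : L → Matrix ν ε ℝ} {NL : L → Matrix ν ν ℝ}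
    {ξ : L → ε ⊕ ν → ℝ} {η : ε → ℝ}
    (hker : ∀ᶠ l in F, pen (tL l) (hL l) D (A1 + sL l • A2) (CL l) (NL l) *ᵥ ξ l = 0)
    (hpsd : ∀ᶠ l in F, (pen (tL l) (hL l) D (A1 + sL l • A2) (CL l) (NL l)).PosSemidef)
    (ht : Tendsto tL F (𝓝 0)) (hh : Tendsto hL F (𝓝 0))
    {n1 : ℝ} (hN : ∀ᶠ l in F, ∀ i j, |NL l i j| ≤ n1)
    (hξE : ∀ i, Tendsto (fun l => ξ l (Sum.inl i)) F (𝓝 (η i)))
    (hη : η ⬝ᵥ η = 1) {lam1 lam2 : ℝ} (h1 : A1 *ᵥ η = lam1 • η) (h2 : A2 *ᵥ η = lam2 • η)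
    {δ : ℝ} (hδ : 0 < δ) :
    ∀ᶠ l in F, 0 ≤ tL l + hL l * (lam1 + sL l * lam2) ∧
      (1 - δ) * (tL l + hL l * (lam1 + sL l * lam2)) ≤
      (fun j => ξ l (Sum.inr j)) ⬝ᵥ (D *ᵥ (fun j => ξ l (Sum.inr j))) := by
  classical
  obtain ⟨d0, hd0, hDlow⟩ := posdef_low hD
  -- the constants
  set δ1 : ℝ := min (δ / 4) (1 / 4) with hδ1
  have hδ1p : 0 < δ1 := by rw [hδ1]; positivity
  have hδ1a : δ1 ≤ δ / 4 := min_le_left _ _
  have hδ1b : δ1 ≤ 1 / 4 := min_le_right _ _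
  have tc : Tendsto (fun l => η ⬝ᵥ (fun i => ξ l (Sum.inl i))) F (𝓝 1) := by
    have : Tendsto (fun l => η ⬝ᵥ (fun i => ξ l (Sum.inl i))) F (𝓝 (η ⬝ᵥ η)) :=
      tendsto_finset_sum _ fun i _ => (hξE i).const_mul _
    rwa [hη] at this
  have tc2 : Tendsto (fun l => (η ⬝ᵥ (fun i => ξ l (Sum.inl i))) ^ 2) F (𝓝 1) := by
    have := tc.pow 2
    rwa [one_pow] at this
  have tb : Tendsto (fun l => |tL l| + |hL l| * (|n1| * (Fintype.card ν : ℝ))) F (𝓝 0) := by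
    have := ht.abs.add (hh.abs.mul_const (|n1| * (Fintype.card ν : ℝ)))
    simpa using this
  filter_upwards [hker, hpsd, hN, tc2.eventually_const_lt (show 1 - δ1 < 1 by linarith),
    tb.eventually_lt_const (show 0 < δ1 * d0 by positivity)] with l hk hp hNl hc hb
  have hAη : (A1 + sL l • A2) *ᵥ η = (lam1 + sL l * lam2) • η := by
    rw [Matrix.add_mulVec, Matrix.smul_mulVec, h1, h2, smul_smul, add_smul]
  obtain ⟨h3, h4⟩ := z1_point hk hp hη hAη hd0 hDlow hNl hδ1p hb.le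
  refine ⟨h3, ?_⟩
  set l0 : ℝ := tL l + hL l * (lam1 + sL l * lam2) with hl0
  set q : ℝ := (fun j => ξ l (Sum.inr j)) ⬝ᵥ (D *ᵥ (fun j => ξ l (Sum.inr j))) with hq
  have h8 : (1 - δ1) * l0 ≤ (1 + δ1) * q := by
    have : (1 - δ1) * l0 ≤ (η ⬝ᵥ (fun i => ξ l (Sum.inl i))) ^ 2 * l0 :=
      mul_le_mul_of_nonneg_right hc.le h3
    linarith
  have h9 : (1 + δ1) * ((1 - δ) * l0) ≤ (1 - δ1) * l0 := by
    have h10 : (1 + δ1) * (1 - δ) ≤ 1 - δ1 := by nlinarith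
    have h11 := mul_le_mul_of_nonneg_right h10 h3
    linarith
  have h10 : (1 + δ1) * ((1 - δ) * l0) ≤ (1 + δ1) * q := h9.trans h8
  exact le_of_mul_le_mul_left h10 (by linarith)

end ZOne

end Vale.Agent.P256.H718
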