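import Vale.Agent.P256.H718.StepA
import Vale.Agent.P256.H387.Iface
import Vale.Agent.P256.H576.State

/-! Step A for a representation `KRepZ` with base `z`: case (C)(i). -/

set_option linter.all false

namespace Vale.Agent.P256.H718

open Filter Topology Matrix Vale.Agent.P256 Vale.Agent.P256.H326 Vale.Agent.P256.H387
open Vale.Agent.P256.H576 (InI InL)

section Calc

variable {L X : Type*} {F : Filter L} {G : Filter X} {u : L → X → ℝ}

/-- a germ times an element of `I_u` -/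
theorem InI.germ {β k : L → X → ℝ} {c : ℝ} (hβ : GermFR F G β c) (H : InI F G u k) :
    InI F G u (fun l x => β l x * k l x) := by
  obtain ⟨N, hN, h1, h2⟩ := H
  set C : ℝ := |c| + 1 with hC
  have hc1 : c < C := by rw [hC]; have := le_abs_self c; linarith
  have hc2 : -c < C := by rw [hC]; have := neg_abs_le c; linarith
  have g1 : SosF F G (fun l x => C - β l x) := GermFR.sosF ((GermFR.const C).sub hβ) (by linarith)
  have g2 : SosF F G (fun l x => C + β l x) := GermFR.sosF ((GermFR.const C).add hβ) (by linarith)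
  refine ⟨C * N, by positivity, ?_, ?_⟩
  · refine SosF.congr' (SosF.smul (c := 1 / 2) (by norm_num) ((g2.mul h1).add (g1.mul h2)))
      fun l x => ?_
    ring
  · refine SosF.congr' (SosF.smul (c := 1 / 2) (by norm_num) ((g1.mul h1).add (g2.mul h2)))
      fun l x => ?_
    ring

end Calc

section Gs

variable {ι : Type} [Fintype ι] [DecidableEq ι] {L X : Type} {F : Filter L} {V : Filter X}
  {A0 A1 : Matrix ι ι ℝ} {H DH : ℝ → Matrix ι ι ℝ} {s : L → ℝ} {s' : X → ℝ}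

/-- the second difference of `G` -/
def Br (A0 A1 : Matrix ι ι ℝ) (H DH : ℝ → Matrix ι ι ℝ) (s s' : ℝ) : Matrix ι ι ℝ :=
  Gs A0 A1 H s' - Gs A0 A1 H s - (s' - s) • DGs A1 H DH s

theorem Br_apply (s s' : ℝ) (i j : ι) : Br A0 A1 H DH s s' i j =
    H s i j * (s' - s) ^ 2 + (s' + s) * ((s' - s) * (H s' i j - H s i j)) +
      s ^ 2 * (H s' i j - H s i j - (s' - s) * DH s i j) := by
  simp only [Br, Gs, DGs, Matrix.sub_apply, Matrix.add_apply, Matrix.smul_apply, smul_eq_mul]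
  ring

theorem Gs_sub_apply (s s' : ℝ) (i j : ι) : Gs A0 A1 H s' i j - Gs A0 A1 H s i j =
    A1 i j * (s' - s) + (s' + s) * H s i j * (s' - s) + s' ^ 2 * (H s' i j - H s i j) := by
  simp only [Gs, Matrix.add_apply, Matrix.smul_apply, smul_eq_mul]
  ring

theorem germ_H (nk : ∀ i j, NK (fun s => H s i j) (fun s => DH s i j))
    (hs : Tendsto s F (𝓝 0)) (i j : ι) :
    GermFR F V (fun l (_ : X) => H (s l) i j) (H 0 i j) := by
  have h1 : ContinuousAt (fun s => H s i j) 0 := (nk i j).cont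
  exact GermFR.left (h1.tendsto.comp hs)

theorem fr_e (s : L → ℝ) (s' : X → ℝ) : FR (fun l x => s' x - s l) :=
  (FR.right s').sub (FR.left s)

theorem germ_sum (hs : Tendsto s F (𝓝 0)) (hs' : Tendsto s' V (𝓝 0)) :
    GermFR F V (fun l x => s' x + s l) 0 :=
  ((GermFR.right hs').add (GermFR.left hs)).congr (fun _ _ => rfl) (by norm_num)

theorem inL_e (s : L → ℝ) (s' : X → ℝ) :
    InL F V (fun l x => (s' x - s l) ^ 2) (fun l x => s' x - s l) :=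
  ⟨fr_e s s', 1, zero_le_one, SosF.zero.congr' fun l x => by ring⟩

theorem inL_dH (nk : ∀ i j, NK (fun s => H s i j) (fun s => DH s i j))
    (hs : Tendsto s F (𝓝 0)) (hs' : Tendsto s' V (𝓝 0)) (i j : ι) :
    InL F V (fun l x => (s' x - s l) ^ 2) (fun l x => H (s' x) i j - H (s l) i j) := by
  obtain ⟨C, hC, h1, -, -⟩ := (nk i j).ker hs hs'
  refine ⟨(FR.right _).sub (FR.left _), C, hC, SosF.congr' h1 fun l x => ?_⟩
  ring

theorem inI_r2 (nk : ∀ i j, NK (fun s => H s i j) (fun s => DH s i j))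
    (hs : Tendsto s F (𝓝 0)) (hs' : Tendsto s' V (𝓝 0)) (i j : ι) :
    InI F V (fun l x => (s' x - s l) ^ 2)
      (fun l x => H (s' x) i j - H (s l) i j - (s' x - s l) * DH (s l) i j) := by
  obtain ⟨C, hC, -, h1, h2⟩ := (nk i j).ker hs hs'
  refine ⟨C, hC, h1, SosF.congr' h2 fun l x => ?_⟩
  ring

/-- **second differences of `G` are `O((s'-s)²)`** -/
theorem inI_Br (nk : ∀ i j, NK (fun s => H s i j) (fun s => DH s i j))
    (hs : Tendsto s F (𝓝 0)) (hs' : Tendsto s' V (𝓝 0)) (i j : ι) :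
    InI F V (fun l x => (s' x - s l) ^ 2) (fun l x => Br A0 A1 H DH (s l) (s' x) i j) := by
  have hu : SosF F V (fun l x => (s' x - s l) ^ 2) := SosF.sq (fr_e s s')
  have h1 := InI.germ (germ_H (V := V) nk hs i j) (InI.self hu)
  have h2 := InI.germ (germ_sum hs hs') ((inL_e (F := F) (V := V) s s').mul (inL_dH nk hs hs' i j))
  have h3 : GermFR F V (fun l (_ : X) => s l ^ 2) (0 ^ 2) := GermFR.left (hs.pow 2)
  have h4 := InI.germ h3 (inI_r2 nk hs hs' i j)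
  refine ((h1.add h2).add h4).congr fun l x => ?_
  rw [Br_apply]

/-- **first differences of `G` are `O(s'-s)`** -/
theorem inL_Gs (nk : ∀ i j, NK (fun s => H s i j) (fun s => DH s i j))
    (hs : Tendsto s F (𝓝 0)) (hs' : Tendsto s' V (𝓝 0)) (i j : ι) :
    InL F V (fun l x => (s' x - s l) ^ 2)
      (fun l x => Gs A0 A1 H (s' x) i j - Gs A0 A1 H (s l) i j) := by
  have h1 := (inL_e (F := F) (V := V) s s').smul (A1 i j)
  have h2 := InL.germ ((germ_sum hs hs').mul (germ_H (V := V) nk hs i j))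
    (inL_e (F := F) (V := V) s s')
  have h3 : GermFR F V (fun (_ : L) x => s' x ^ 2) (0 ^ 2) := GermFR.right (hs'.pow 2)
  have h4 := InL.germ h3 (inL_dH nk hs hs' i j)
  refine ((h1.add h2).add h4).congr fun l x => ?_
  rw [Gs_sub_apply]

/-- a common constant for finitely many elements of `I_u` -/
theorem InI.common {κ : Type*} [Fintype κ] {L X : Type*} {F : Filter L} {G : Filter X}
    {u : L → X → ℝ} (hu : SosF F G u) {h : κ → L → X → ℝ} (H : ∀ k, InI F G u (h k)) :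
    ∃ K : ℝ, 0 ≤ K ∧ ∀ k, SLe F G (h k) (fun l x => K * u l x) ∧
      SLe F G (fun l x => -h k l x) (fun l x => K * u l x) := by
  choose N hN h1 h2 using H
  refine ⟨∑ k, N k, Finset.sum_nonneg fun k _ => hN k, fun k => ?_⟩
  have h3 : N k ≤ ∑ k, N k := Finset.single_le_sum (fun k _ => hN k) (Finset.mem_univ k)
  refine ⟨?_, ?_⟩
  · refine SosF.congr' ((h1 k).add (SosF.smul (sub_nonneg.2 h3) hu)) fun l x => ?_
    ring
  · refine SosF.congr' ((h2 k).add (SosF.smul (sub_nonneg.2 h3) hu)) fun l x => ?_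
    ring

end Gs

section Block

variable {ε ν : Type} [Fintype ε] [DecidableEq ε] [Fintype ν] [DecidableEq ν]

theorem pn_eq_pen {D' : Matrix ν ν ℝ} {A0 A1 : Matrix (ε ⊕ ν) (ε ⊕ ν) ℝ}
    {H : ℝ → Matrix (ε ⊕ ν) (ε ⊕ ν) ℝ} (h0 : A0.IsHermitian) (h1 : A1.IsHermitian)
    (hH : ∀ s, (H s).IsHermitian) (aff : ∀ s i j, H s (Sum.inl i) (Sum.inl j) = 0)
    (t h s : ℝ) :
    Pn (Matrix.fromBlocks 0 0 0 D') A0 A1 H t 1 h s =
      pen t h D' (A0.toBlocks₁₁ + s • A1.toBlocks₁₁) (Gs A0 A1 H s).toBlocks₂₁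
        (Gs A0 A1 H s).toBlocks₂₂ := by
  have hs : ∀ {M : Matrix (ε ⊕ ν) (ε ⊕ ν) ℝ}, M.IsHermitian → ∀ i j, M i j = M j i := by
    intro M hM i j
    have := congrFun (congrFun hM i) j
    rw [Matrix.conjTranspose_apply] at this
    simpa using this.symm
  unfold Pn pen
  rw [one_smul]
  congr 2
  ext (i | i) (j | j)
  · simp [Gs, aff, Matrix.toBlocks₁₁]
  · simp only [Gs, Matrix.add_apply, Matrix.smul_apply, smul_eq_mul, Matrix.fromBlocks_apply₁₂,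
      Matrix.transpose_apply, Matrix.toBlocks₂₁, Matrix.of_apply]
    rw [hs h0, hs h1, hs (hH s)]
  · simp [Gs, Matrix.toBlocks₂₁]
  · simp [Gs, Matrix.toBlocks₂₂]

/-- the quadratic form of a symmetric matrix with vanishing first block -/
theorem form_split {W : Matrix (ε ⊕ ν) (ε ⊕ ν) ℝ} (hW : W.IsHermitian)
    (h0 : ∀ i j, W (Sum.inl i) (Sum.inl j) = 0) (ξ : ε ⊕ ν → ℝ) :
    ξ ⬝ᵥ (W *ᵥ ξ) = 2 * ∑ j, ∑ i, ξ (Sum.inr j) * ξ (Sum.inl i) * W (Sum.inr j) (Sum.inl i) +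
      ∑ j, ∑ i, ξ (Sum.inr j) * ξ (Sum.inr i) * W (Sum.inr j) (Sum.inr i) := by
  have hs : ∀ i j, W i j = W j i := by
    intro i j
    have := congrFun (congrFun hW i) j
    rw [Matrix.conjTranspose_apply] at this
    simpa using this.symm
  rw [dot_mulVec_eq]
  simp only [Fintype.sum_sum_type, Finset.sum_add_distrib, h0, zero_mul, Finset.sum_const_zero,
    zero_add]
  have e1 : ∑ i : ε, ∑ j : ν, W (Sum.inl i) (Sum.inr j) * ξ (Sum.inl i) * ξ (Sum.inr j) =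
      ∑ j : ν, ∑ i : ε, ξ (Sum.inr j) * ξ (Sum.inl i) * W (Sum.inr j) (Sum.inl i) := by
    rw [Finset.sum_comm]
    exact Finset.sum_congr rfl fun j _ => Finset.sum_congr rfl fun i _ => by
      rw [hs (Sum.inl i)]; ring
  have e2 : ∑ j : ν, ∑ i : ε, W (Sum.inr j) (Sum.inl i) * ξ (Sum.inr j) * ξ (Sum.inl i) =
      ∑ j : ν, ∑ i : ε, ξ (Sum.inr j) * ξ (Sum.inl i) * W (Sum.inr j) (Sum.inl i) :=
    Finset.sum_congr rfl fun j _ => Finset.sum_congr rfl fun i _ => by ring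
  have e3 : ∑ j : ν, ∑ i : ν, W (Sum.inr j) (Sum.inr i) * ξ (Sum.inr j) * ξ (Sum.inr i) =
      ∑ j : ν, ∑ i : ν, ξ (Sum.inr j) * ξ (Sum.inr i) * W (Sum.inr j) (Sum.inr i) :=
    Finset.sum_congr rfl fun j _ => Finset.sum_congr rfl fun i _ => by ring
  rw [e1, e2, e3]
  ring

end Block

section Main

variable {ε ν : Type} [Fintype ε] [DecidableEq ε] [Fintype ν] [DecidableEq ν] {L X : Type}
  {F : Filter L} {V : Filter X} {S : L → X → ℝ} {K : Crd L X}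

/-- the slope of the `L`-side -/
noncomputable def sl (K : Crd L X) (l : L) : ℝ := K.a l / K.b l

/-- the slope of the `X`-side -/
noncomputable def sx (K : Crd L X) (x : X) : ℝ := K.a' x / K.b' x

/-- the pencil of a `KRepZ` at the `X`-side -/
noncomputable def MX {ι : Type} [Fintype ι] [DecidableEq ι] (R : KRepZ ι F V S K) (x : X) :
    Matrix ι ι ℝ :=
  Pn R.D R.A0 R.A1 R.H (K.y0 x) 1 (K.b' x) (sx K x)

theorem zero_inl {M : Matrix (ε ⊕ ν) (ε ⊕ ν) ℝ} {D' : Matrix ν ν ℝ}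
    (haff : ∀ u v : ε ⊕ ν → ℝ, (Matrix.fromBlocks 0 0 0 D' : Matrix (ε ⊕ ν) (ε ⊕ ν) ℝ) *ᵥ u = 0 →
      (Matrix.fromBlocks 0 0 0 D' : Matrix (ε ⊕ ν) (ε ⊕ ν) ℝ) *ᵥ v = 0 → u ⬝ᵥ (M *ᵥ v) = 0)
    (i j : ε) : M (Sum.inl i) (Sum.inl j) = 0 := by
  have hk : ∀ i : ε, (Matrix.fromBlocks 0 0 0 D' : Matrix (ε ⊕ ν) (ε ⊕ ν) ℝ) *ᵥ
      (Pi.single (Sum.inl i) (1 : ℝ)) = 0 := by
    intro i
    rw [Matrix.mulVec_single_one]
    ext (k | k)
    · rfl
    · rfl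
  have h1 := haff (Pi.single (Sum.inl i) 1) (Pi.single (Sum.inl j) 1) (hk i) (hk j)
  rw [Matrix.mulVec_single_one, single_one_dotProduct] at h1
  exact h1

theorem DGs_inl_zero {H DH : ℝ → Matrix (ε ⊕ ν) (ε ⊕ ν) ℝ}
    (nk : ∀ i j, NK (fun s => H s i j) (fun s => DH s i j))
    (aff : ∀ s i j, H s (Sum.inl i) (Sum.inl j) = 0) (i j : ε) :
    ∀ᶠ s in 𝓝 (0 : ℝ), DH s (Sum.inl i) (Sum.inl j) = 0 := by
  filter_upwards [(nk (Sum.inl i) (Sum.inl j)).der] with s hs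
  have h1 : (fun s => H s (Sum.inl i) (Sum.inl j)) = fun _ => (0 : ℝ) := by
    funext s; exact aff s i j
  rw [h1] at hs
  exact hs.unique (hasDerivAt_const s 0)

theorem xiN_zero [F.NeBot] (R : KRepZ (ε ⊕ ν) F V S K) {D' : Matrix ν ν ℝ}
    (hD : R.D = Matrix.fromBlocks 0 0 0 D') (hD' : D'.PosDef) (j : ν) : R.ξ0 (Sum.inr j) = 0 := by
  have h1 : R.D *ᵥ R.ξ0 = 0 := by
    funext i
    have t1 : Tendsto (fun l => (Pn R.D R.A0 R.A1 R.H (K.x0 l) 1 (K.b l) (sl K l) *ᵥ R.ξ l) i) F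
        (𝓝 ((Pn R.D R.A0 R.A1 R.H 0 1 0 0 *ᵥ R.ξ0) i)) := by
      simp only [Matrix.mulVec, dotProduct]
      refine tendsto_finset_sum _ fun k _ => Tendsto.mul ?_ (R.tξ k)
      simp only [Pn, Gs, Matrix.add_apply, Matrix.smul_apply, smul_eq_mul]
      have hc : Tendsto (fun l => R.H (sl K l) i k) F (𝓝 (R.H 0 i k)) := by
        have h2 : ContinuousAt (fun s => R.H s i k) 0 := (R.nk i k).cont
        exact h2.tendsto.comp R.ts
      have hts : Tendsto (fun l => sl K l) F (𝓝 0) := R.ts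
      exact ((R.tx0.mul_const _).add tendsto_const_nhds).add
        (R.tb.mul ((tendsto_const_nhds.add (hts.mul_const _)).add ((hts.pow 2).mul hc)))
    have t2 : Tendsto (fun l => (Pn R.D R.A0 R.A1 R.H (K.x0 l) 1 (K.b l) (sl K l) *ᵥ R.ξ l) i) F
        (𝓝 0) := by
      refine tendsto_const_nhds.congr' ?_
      filter_upwards [R.ker] with l hl
      have hl' : Pn R.D R.A0 R.A1 R.H (K.x0 l) 1 (K.b l) (sl K l) *ᵥ R.ξ l = 0 := hl
      rw [hl']; rfl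
    have h2 := tendsto_nhds_unique t1 t2
    have h3 : Pn R.D R.A0 R.A1 R.H 0 1 0 0 = R.D := by
      simp [Pn]
    rw [h3] at h2
    exact h2
  rw [hD] at h1
  have h2 : D' *ᵥ (fun j => R.ξ0 (Sum.inr j)) = 0 := by
    funext j
    have := congrFun h1 (Sum.inr j)
    simp only [Matrix.mulVec, dotProduct, Fintype.sum_sum_type, Matrix.fromBlocks_apply₂₁,
      Matrix.fromBlocks_apply₂₂, Matrix.zero_apply, zero_mul, Finset.sum_const_zero,
      zero_add] at this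
    exact this
  have h3 : (fun j => R.ξ0 (Sum.inr j)) = 0 := by
    have hu : IsUnit D'.det := (Matrix.isUnit_iff_isUnit_det D').1 hD'.isUnit
    have e1 : (fun j => R.ξ0 (Sum.inr j)) = D'⁻¹ *ᵥ (D' *ᵥ (fun j => R.ξ0 (Sum.inr j))) := by
      rw [Matrix.mulVec_mulVec, Matrix.nonsing_inv_mul _ hu, Matrix.one_mulVec]
    rw [e1, h2, Matrix.mulVec_zero]
  exact congrFun h3 j

/-- **Case (C)(i)**: `P_E A₁ ξ₀ ≠ 0`. -/
theorem stepA_krep [F.NeBot] (R : KRepZ (ε ⊕ ν) F V S K) {D' : Matrix ν ν ℝ}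
    (hD : R.D = Matrix.fromBlocks 0 0 0 D') (hD' : D'.PosDef)
    (hx : ∃ c : ℝ, ∀ᶠ x in V, K.y0 x ≤ c * K.b' x)
    (hne : R.A1.toBlocks₁₁ *ᵥ (fun i => R.ξ0 (Sum.inl i)) ≠
      (R.ξ0 ⬝ᵥ (R.A1 *ᵥ R.ξ0)) • (fun i => R.ξ0 (Sum.inl i))) :
    (∃ C : ℝ, 0 ≤ C ∧ SLe F V (fun l x => K.b' x * (sx K x - sl K l) ^ 2)
      (fun l x => C * (R.ξ l ⬝ᵥ (MX R x *ᵥ R.ξ l)))) ∧ SosF F V S := by
  classical
  obtain ⟨c, hc⟩ := hx
  have haff : ∀ s i j, R.H s (Sum.inl i) (Sum.inl j) = 0 := by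
    intro s i j
    refine zero_inl (D' := D') (fun u v hu hv => R.aff s u v ?_ ?_) i j
    · rw [hD]; exact hu
    · rw [hD]; exact hv
  have hpn : ∀ t h s : ℝ, Pn R.D R.A0 R.A1 R.H t 1 h s =
      pen t h D' (R.A0.toBlocks₁₁ + s • R.A1.toBlocks₁₁) (Gs R.A0 R.A1 R.H s).toBlocks₂₁
        (Gs R.A0 R.A1 R.H s).toBlocks₂₂ := by
    intro t h s
    rw [hD]
    exact pn_eq_pen R.sym0 R.sym1 R.symH haff t h s
  have hts : Tendsto (sl K) F (𝓝 0) := R.ts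
  have hts' : Tendsto (sx K) V (𝓝 0) := R.ts'
  set u : L → X → ℝ := fun l x => (sx K x - sl K l) ^ 2 with hu
  have hus : SosF F V u := SosF.sq (fr_e (sl K) (sx K))
  have hξN0 : ∀ j, R.ξ0 (Sum.inr j) = 0 := xiN_zero R hD hD'
  have hξN : ∀ j, Tendsto (fun l => R.ξ l (Sum.inr j)) F (𝓝 0) := by
    intro j
    have := R.tξ (Sum.inr j)
    rwa [hξN0 j] at this
  have hη : (fun i => R.ξ0 (Sum.inl i)) ⬝ᵥ (fun i => R.ξ0 (Sum.inl i)) = 1 := by
    have := R.nrm0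
    simp only [dotProduct, Fintype.sum_sum_type, hξN0, mul_zero, Finset.sum_const_zero,
      add_zero] at this
    exact this
  have hq : (fun i => R.ξ0 (Sum.inl i)) ⬝ᵥ (R.A1.toBlocks₁₁ *ᵥ (fun i => R.ξ0 (Sum.inl i))) =
      R.ξ0 ⬝ᵥ (R.A1 *ᵥ R.ξ0) := by
    simp only [dotProduct, Matrix.mulVec, Fintype.sum_sum_type, hξN0, mul_zero, zero_mul,
      Finset.sum_const_zero, add_zero]
    rfl
  -- N1
  have hN1 : ∃ K1 : ℝ, 0 ≤ K1 ∧ ∀ (j : ν) (i : ε), SLe F V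
      (fun l x => ((Gs R.A0 R.A1 R.H (sx K x)).toBlocks₂₁ j i -
        (Gs R.A0 R.A1 R.H (sl K l)).toBlocks₂₁ j i) ^ 2)
      (fun l x => K1 * (sx K x - sl K l) ^ 2) := by
    have h1 : ∀ p : ν × ε, InI F V u (fun l x =>
        (Gs R.A0 R.A1 R.H (sx K x) (Sum.inr p.1) (Sum.inl p.2) -
        Gs R.A0 R.A1 R.H (sl K l) (Sum.inr p.1) (Sum.inl p.2)) *
        (Gs R.A0 R.A1 R.H (sx K x) (Sum.inr p.1) (Sum.inl p.2) -
        Gs R.A0 R.A1 R.H (sl K l) (Sum.inr p.1) (Sum.inl p.2))) := fun p =>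
      (inL_Gs R.nk hts hts' _ _).mul (inL_Gs R.nk hts hts' _ _)
    obtain ⟨K1, hK1, h2⟩ := InI.common hus h1
    refine ⟨K1, hK1, fun j i => ?_⟩
    refine SosF.congr' (h2 (j, i)).1 fun l x => ?_
    show _ - (Gs R.A0 R.A1 R.H (sx K x) (Sum.inr j) (Sum.inl i) -
        Gs R.A0 R.A1 R.H (sl K l) (Sum.inr j) (Sum.inl i)) ^ 2 = _
    ring
  obtain ⟨K1, hK1, hN1⟩ := hN1
  -- the remainder
  have hN2 : ∀ p : (ε ⊕ ν) × (ε ⊕ ν), InI F V u
      (fun l x => Br R.A0 R.A1 R.H R.DH (sl K l) (sx K x) p.1 p.2) := fun p =>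
    inI_Br R.nk hts hts' _ _
  obtain ⟨K2, hK2, hN2⟩ := InI.common hus hN2
  set Er : L → X → ℝ := fun l x => 2 * ∑ j : ν, ∑ i : ε, R.ξ l (Sum.inr j) * R.ξ l (Sum.inl i) *
    Br R.A0 R.A1 R.H R.DH (sl K l) (sx K x) (Sum.inr j) (Sum.inl i) +
    ∑ j : ν, ∑ i : ν, R.ξ l (Sum.inr j) * R.ξ l (Sum.inr i) *
    Br R.A0 R.A1 R.H R.DH (sl K l) (sx K x) (Sum.inr j) (Sum.inr i) with hEr
  have hErs : ∀ δ : ℝ, 0 < δ → SLe F V (fun l x => (1 : ℝ) * Er l x)
      (fun l x => δ * (sx K x - sl K l) ^ 2) := by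
    intro δ hδ
    exact rem_small (fr_e (sl K) (sx K)) (fun i => R.tξ (Sum.inl i)) hξN hK2
      (Wc := fun j i l x => Br R.A0 R.A1 R.H R.DH (sl K l) (sx K x) (Sum.inr j) (Sum.inl i))
      (Wn := fun j i l x => Br R.A0 R.A1 R.H R.DH (sl K l) (sx K x) (Sum.inr j) (Sum.inr i))
      (fun j i => (hN2 (Sum.inr j, Sum.inl i)).1) (fun j i => (hN2 (Sum.inr j, Sum.inl i)).2)
      (fun j i => (hN2 (Sum.inr j, Sum.inr i)).1) (fun j i => (hN2 (Sum.inr j, Sum.inr i)).2)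
      1 hδ
  -- the kernel without scales
  set T : L → X → ℝ := fun l x => R.ξ l ⬝ᵥ (pen (K.y0 x) (K.b' x) D'
    (R.A0.toBlocks₁₁ + sx K x • R.A1.toBlocks₁₁) (Gs R.A0 R.A1 R.H (sx K x)).toBlocks₂₁
        (Gs R.A0 R.A1 R.H (sx K x)).toBlocks₂₂ *ᵥ R.ξ l) - K.b' x * Er l x with hT
  have hsb : ∀ᶠ x in V, |sx K x| ≤ 1 := by
    have h1 := hts'.abs
    rw [abs_zero] at h1
    filter_upwards [h1.eventually_lt_const zero_lt_one] with x hx using hx.le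
  have hmain := sosF_stepA (F := F) (G := V) (D := D') (A1 := R.A0.toBlocks₁₁)
    (A2 := R.A1.toBlocks₁₁) (tL := K.x0) (hL := K.b) (sL := sl K)
    (CL := fun l => (Gs R.A0 R.A1 R.H (sl K l)).toBlocks₂₁)
    (NL := fun l => (Gs R.A0 R.A1 R.H (sl K l)).toBlocks₂₂)
    (tX := K.y0) (hX := K.b') (sX := sx K)
    (CX := fun x => (Gs R.A0 R.A1 R.H (sx K x)).toBlocks₂₁)
    (NX := fun x => (Gs R.A0 R.A1 R.H (sx K x)).toBlocks₂₂)
    (ξ := R.ξ) (η := fun i => R.ξ0 (Sum.inl i))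
    (by
      filter_upwards [R.ker] with l hl
      rw [← hpn]; exact hl)
    (by filter_upwards [R.b_pos] with l hl using hl.ne')
    (by
      filter_upwards [R.psdX] with x hx
      rw [← hpn]; exact hx)
    (s1 := 1) hsb (σ := 1) (Or.inl rfl)
    (by filter_upwards [R.b'_pos] with x hx; rw [one_mul]; exact hx)
    (c := c)
    (by
      filter_upwards [hc, R.b'_pos] with x hx hx'
      rw [abs_of_pos hx']; exact hx)
    (fun i => R.tξ (Sum.inl i)) hξN hη (by rw [hq]; exact hne) hK1 hN1 (Er := Er) hErs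
    (S := T) (EqF.refl _)
  obtain ⟨⟨C, hC, hineq⟩, hsos⟩ := hmain
  refine ⟨⟨C, hC, ?_⟩, ?_⟩
  · refine SosF.congr hineq (EqF.of_eventually (fun _ => True) _ (by simp) R.b'_pos
      fun l x _ hx => ?_)
    show C * (R.ξ l ⬝ᵥ (MX R x *ᵥ R.ξ l)) - K.b' x * (sx K x - sl K l) ^ 2 =
      C * (R.ξ l ⬝ᵥ (pen (K.y0 x) (K.b' x) D'
    (R.A0.toBlocks₁₁ + sx K x • R.A1.toBlocks₁₁) (Gs R.A0 R.A1 R.H (sx K x)).toBlocks₂₁
        (Gs R.A0 R.A1 R.H (sx K x)).toBlocks₂₂ *ᵥ R.ξ l)) - |K.b' x| * (sx K x - sl K l) ^ 2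
    rw [abs_of_pos hx, ← hpn]
    rfl
  · -- S = c' |ξ|^{-2} T
    have hξpos : ∀ᶠ l in F, 0 < R.ξ l ⬝ᵥ R.ξ l := by
      filter_upwards [R.nrm] with l hl
      have h1 : 0 ≤ R.ξ l ⬝ᵥ R.ξ l := Finset.sum_nonneg fun i _ => mul_self_nonneg _
      refine lt_of_le_of_ne h1 fun h0 => ?_
      have h2 : R.ξ l = 0 := dotProduct_self_eq_zero.1 h0.symm
      rw [h2, dotProduct_zero] at hl
      exact zero_ne_one hl
    have hc'pos : ∀ᶠ x in V, 0 ≤ K.c' x := by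
      filter_upwards [R.tc'.eventually_const_lt (show (0 : ℝ) < 1 by norm_num)] with x hx
        using hx.le
    have hder : ∀ᶠ l in F, ∀ i j : ε, R.DH (sl K l) (Sum.inl i) (Sum.inl j) = 0 := by
      rw [eventually_all]; intro i
      rw [eventually_all]; intro j
      exact hts.eventually (DGs_inl_zero R.nk haff i j)
    have h1 : SosF F V (fun l x => (R.ξ l ⬝ᵥ R.ξ l)⁻¹ * (K.c' x * T l x)) :=
      (SosF.left (by filter_upwards [hξpos] with l hl using (inv_pos.2 hl).le)).mul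
        ((SosF.right hc'pos).mul hsos)
    refine h1.congr ?_
    obtain ⟨A, hA, B, hB, e⟩ := R.S_eq
    refine ⟨A ∩ ({l | 0 < R.ξ l ⬝ᵥ R.ξ l} ∩
      {l | ∀ i j : ε, R.DH (sl K l) (Sum.inl i) (Sum.inl j) = 0}),
      inter_mem hA (inter_mem hξpos hder), B, hB, fun l hl x hx => ?_⟩
    obtain ⟨hl1, hl2, hl3⟩ := hl
    have e1 := e l hl1 x hx
    simp only at e1
    have hl2' : R.ξ l ⬝ᵥ R.ξ l ≠ 0 := (show 0 < R.ξ l ⬝ᵥ R.ξ l from hl2).ne'
    have hl3' : ∀ i j : ε, R.DH (sl K l) (Sum.inl i) (Sum.inl j) = 0 := hl3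
    have e2 : R.ξ l ⬝ᵥ (DPn R.D R.A0 R.A1 R.H R.DH (K.a l / K.b l) (K.y0 x) 1 (K.b' x)
        (K.a' x / K.b' x) *ᵥ R.ξ l) = T l x := by
      have e3 : DPn R.D R.A0 R.A1 R.H R.DH (K.a l / K.b l) (K.y0 x) 1 (K.b' x)
          (K.a' x / K.b' x) = Pn R.D R.A0 R.A1 R.H (K.y0 x) 1 (K.b' x) (sx K x) -
          K.b' x • Br R.A0 R.A1 R.H R.DH (sl K l) (sx K x) := by
        simp only [DPn, Pn, Br, sl, sx]
        rw [smul_sub, smul_sub, smul_add]
        abel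
      have hBrH : (Br R.A0 R.A1 R.H R.DH (sl K l) (sx K x)).IsHermitian := by
        have hGs : ∀ s, (Gs R.A0 R.A1 R.H s).IsHermitian := by
          intro s
          have h2 : ∀ (r : ℝ) {M : Matrix (ε ⊕ ν) (ε ⊕ ν) ℝ}, M.IsHermitian →
              (r • M).IsHermitian := by
            intro r M hM
            rw [Matrix.IsHermitian, Matrix.conjTranspose_smul, hM]; simp
          exact (R.sym0.add (h2 _ R.sym1)).add (h2 _ (R.symH s))
        have h2 : ∀ (r : ℝ) {M : Matrix (ε ⊕ ν) (ε ⊕ ν) ℝ}, M.IsHermitian →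
              (r • M).IsHermitian := by
            intro r M hM
            rw [Matrix.IsHermitian, Matrix.conjTranspose_smul, hM]; simp
        have h3 : (DGs R.A1 R.H R.DH (sl K l)).IsHermitian :=
          (R.sym1.add (h2 _ (R.symH _))).add (h2 _ (R.symDH _))
        exact ((hGs _).sub (hGs _)).sub (h2 _ h3)
      have hBr0 : ∀ i j : ε, Br R.A0 R.A1 R.H R.DH (sl K l) (sx K x) (Sum.inl i) (Sum.inl j) = 0 := by
        intro i j
        rw [Br_apply, haff, haff, hl3']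
        ring
      rw [e3, Matrix.sub_mulVec, dotProduct_sub, Matrix.smul_mulVec, dotProduct_smul, smul_eq_mul,
        form_split hBrH hBr0, hpn]
    rw [e2] at e1
    have e4 : S l x = (R.ξ l ⬝ᵥ R.ξ l)⁻¹ * ((R.ξ l ⬝ᵥ R.ξ l) * S l x) := by
      rw [← mul_assoc, inv_mul_cancel₀ hl2', one_mul]
    rw [e4, e1]

/-- **Case (C)(i)** in the frame of the limit functional (`ζ w = 0`). -/
theorem stepA_krep0 [F.NeBot] (R : KRepZ (ε ⊕ ν) F V S K) {D' : Matrix ν ν ℝ}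
    (hD : R.D = Matrix.fromBlocks 0 0 0 D') (hD' : D'.PosDef)
    (hx : ∃ c : ℝ, ∀ᶠ x in V, K.y0 x ≤ c * K.b' x)
    (hA10 : R.ξ0 ⬝ᵥ (R.A1 *ᵥ R.ξ0) = 0)
    (hne : R.A1.toBlocks₁₁ *ᵥ (fun i => R.ξ0 (Sum.inl i)) ≠ 0) : SosF F V S :=
  (stepA_krep R hD hD' hx (by rw [hA10, zero_smul]; exact hne)).2

end Main

end Vale.Agent.P256.H718
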